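import Vale.Agent.P162.Main

/-!
# P162 : the mixing time as a number
`tmix m` is the least `t` with `tvUnif (thorpPow m t) ≤ 1/4` (deck of `2 * m` cards).
A bound of the form `C * (k+1)^a ≤ t → tvUnif (thorpPow (2^k) t) ≤ 1/4` is turned into
`2 d - 1 ≤ tmix (2^(d-1)) ≤ C' * d^a` for the deck of `2^d` cards.
-/

namespace Vale.Agent.P162

/-- The mixing time of the Thorp shuffle of a deck of `2 * m` cards, counted in single shuffles: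
the least `t` such that the law of `t` shuffles is within total variation `1/4` of uniform. -/
noncomputable def tmix (m : ℕ) : ℕ := sInf {t : ℕ | tvUnif (thorpPow m t) ≤ 1 / 4}

theorem tmix_isLeast (m : ℕ) (h : ∃ t : ℕ, tvUnif (thorpPow m t) ≤ 1 / 4) :
    IsLeast {t : ℕ | tvUnif (thorpPow m t) ≤ 1 / 4} (tmix m) :=
  ⟨Nat.sInf_mem h, fun _ ht => Nat.sInf_le ht⟩

/-- From a threshold bound to a bound on the mixing time, together with the lower bound `2 d - 1`. -/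
theorem tmix_form (a : ℝ) (ha : 0 ≤ a)
    (h : ∃ C : ℝ, 0 < C ∧ ∀ k t : ℕ, C * ((k : ℝ) + 1) ^ a ≤ t →
      tvUnif (thorpPow (2 ^ k) t) ≤ 1 / 4) :
    ∃ C : ℝ, 0 < C ∧ ∀ d : ℕ, 1 ≤ d →
      IsLeast {t : ℕ | tvUnif (thorpPow (2 ^ (d - 1)) t) ≤ 1 / 4} (tmix (2 ^ (d - 1))) ∧
      2 * d - 1 ≤ tmix (2 ^ (d - 1)) ∧
      (tmix (2 ^ (d - 1)) : ℝ) ≤ C * (d : ℝ) ^ a := by
  obtain ⟨C, hC, hb⟩ := h
  refine ⟨C + 1, by linarith, fun d hd => ?_⟩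
  obtain ⟨k, rfl⟩ : ∃ k, d = k + 1 := ⟨d - 1, by omega⟩
  simp only [Nat.add_sub_cancel]
  have hcast : ((k + 1 : ℕ) : ℝ) = (k : ℝ) + 1 := by push_cast; ring
  have hone : (1 : ℝ) ≤ ((k : ℝ) + 1) ^ a :=
    Real.one_le_rpow (by have : (0 : ℝ) ≤ (k : ℝ) := Nat.cast_nonneg k; linarith) ha
  have hmem : tvUnif (thorpPow (2 ^ k) ⌈C * ((k : ℝ) + 1) ^ a⌉₊) ≤ 1 / 4 :=
    hb k _ (Nat.le_ceil _)
  have hl := tmix_isLeast (2 ^ k) ⟨_, hmem⟩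
  refine ⟨hl, ?_, ?_⟩
  · by_contra hlt
    have h1 : tmix (2 ^ k) ≤ 2 * k := by omega
    have h2 := tv_lower_all k _ h1
    have h3 : tvUnif (thorpPow (2 ^ k) (tmix (2 ^ k))) ≤ 1 / 4 := hl.1
    linarith
  · have h1 : tmix (2 ^ k) ≤ ⌈C * ((k : ℝ) + 1) ^ a⌉₊ := hl.2 hmem
    have h2 : ((⌈C * ((k : ℝ) + 1) ^ a⌉₊ : ℕ) : ℝ) < C * ((k : ℝ) + 1) ^ a + 1 :=
      Nat.ceil_lt_add_one (by positivity)
    have h3 : (tmix (2 ^ k) : ℝ) ≤ ((⌈C * ((k : ℝ) + 1) ^ a⌉₊ : ℕ) : ℝ) := by exact_mod_cast h1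
    rw [hcast]
    nlinarith

end Vale.Agent.P162
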